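import Vale.Agent.P207.N4.Dim
import Vale.Agent.P207.N5.H58.PicG
import Vale.Agent.P207.N4.H229.Star

/-!
# P207, line N5, row STAR: the densities of the leaves on the discs, for the geometry
-/

open Set Filter Topology Metric MeasureTheory
open scoped ContDiff

set_option linter.unusedSectionVars false

noncomputable section

namespace Vale.Agent.P207.N4.V

open Vale.Agent.P207.N3
open Vale.Agent.P207.H229 (det_ne_zero_iff')

variable [Dim]

variable {Γ X B : Type} [Group Γ] [MetricSpace X] [ProperSpace X] [MulAction Γ X]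
  [IsIsometricSMul Γ X] [TopologicalSpace B] [CompactSpace B] [T2Space B] [MulAction Γ B]
  [ContinuousConstSMul Γ B] {L : Leaf Γ X B} [MeasurableSpace B] [BorelSpace B] {V : Type}
  [NormedAddCommGroup V] [NormedSpace ℝ V] [FiniteDimensional ℝ V]

theorem Suite.norm' (S : Suite L V) (x : X) : S.A.s x 0 * S.A.s (L.flip x) 0
    = (S.I.r₀ ^ Module.finrank ℝ E2) ^ 2 * (S.M.U x + S.M.U (L.flip x)).det := by
  rw [S.norm x, ← pow_mul, mul_comm 2 Dim.m]
  have h1 : Module.finrank ℝ E2 = Dim.m := finrank_euclideanSpace_fin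
  rw [h1]

/-- the densities of the leaves over the geometric Busemann functions -/
def Suite.busD (S : Suite L V) : BusD (H709.busA S.X S.H) S.A :=
  BusD.mk' (H709.busA S.X S.H) S.A fun x y y' q hy hy' he => by
    have hi := (det_ne_zero_iff' _).2 ((H709.busA S.X S.H).sg_inv x y q hy.1 hy.2)
    have hi' := (det_ne_zero_iff' _).2 ((H709.busA S.X S.H).sg_inv x y' q hy'.1 hy'.2)
    exact H229.star_geo S.I S.A S.H (Suite.norm' S) hy.1 hy'.1 he hi hi'

theorem PicG.exists_busD (G : PicG L V) : Nonempty (BusD G.Bu G.S.A) := by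
  rw [G.Bu_eq]
  exact ⟨Suite.busD G.S⟩

end Vale.Agent.P207.N4.V
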