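import Vale.Agent.P207.N4.Dim
import Vale.Agent.P207.N5.H229.PdQ
import Vale.Agent.P207.N5.H469.T2Main
import Vale.Agent.P207.N5.H281.Jets2

/-!
# P207, rows PROD + END, only `b < 2 a`: the 2-jets of the tensor from Lemma Q

This text is the same in N4 and in N5.
-/

set_option linter.unusedSectionVars false
set_option maxSynthPendingDepth 3

open Set Filter Topology Metric MeasureTheory
open scoped ContDiff

noncomputable section

namespace Vale.Agent.P207.N4.V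

open Vale.Agent.P207.N3

variable [Dim]

variable {Γ X B : Type} [Group Γ] [MetricSpace X] [ProperSpace X] [MulAction Γ X]
  [IsIsometricSMul Γ X] [TopologicalSpace B] [CompactSpace B] [T2Space B] [MulAction Γ B]
  [ContinuousConstSMul Γ B] {L : Leaf Γ X B} [MeasurableSpace B] [BorelSpace B] {V : Type}
  [NormedAddCommGroup V] [NormedSpace ℝ V] [FiniteDimensional ℝ V]

/-- the conclusion of Lemma Q in the rough alternative, for `- N0` -/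
def Pic.LqN (P : Pic L V) : Prop :=
  ∃ CQ : ℝ → ℝ → (ℕ → ℝ) → ℝ → ℝ, ∀ x, H281.LQ (fun p => - P.N0 x p) CQ

/-- **uniform 2-jets of the tensor**, from Lemma Q -/
theorem PicG.jets_q (G : PicG L V) (hQ : G.toPic.LqN) {ε : ℝ} (hε : 0 < ε) (hε1 : ε ≤ 3 / 4) :
    ∃ C R : ℝ, 0 < R ∧ R ≤ 1 ∧ ∀ x,
      ∃ (a : E2 →L[ℝ] E2) (A : E2 →L[ℝ] (E2 →L[ℝ] E2)) (Q : E2 →L[ℝ] E2 →L[ℝ] (E2 →L[ℝ] E2)),
        ‖a‖ ≤ C ∧ ‖A‖ ≤ C ∧ ‖Q‖ ≤ C ∧
        ∀ z ∈ ball (0 : E2) R, ‖G.toPic.Na x z - (a + A z + Q z z)‖ ≤ C * ‖z‖ ^ (3 - ε) := by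
  obtain ⟨K, θ, r0, Ck, CQ, hK, hθ0, hθ1, hr0, hCk, hpd⟩ :=
    G.toPic.pd_q G.exists_busD one_pos (H469.t2dG G 1) hQ
  exact G.toPic.jets hK hθ0 hθ1 hr0 hCk hpd hε hε1

end Vale.Agent.P207.N4.V
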