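import Vale.Agent.P207.N4.Dim
import Vale.Agent.P207.N5.H547.AffLemA
import Vale.Agent.P207.N4.H709.DarB
import Vale.Agent.P207.N4.H229.Dens
import Vale.Agent.P207.H229.CompH
import Vale.Agent.P207.H229.PdOk

/-!
# P207, line N5, row PD-GLUE, part 1: uniform bounds near the diagonal of the discs
-/

set_option linter.unusedSectionVars false

open Set Filter Topology Metric MeasureTheory
open scoped ContDiff RealInnerProductSpace

noncomputable section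

namespace Vale.Agent.P207.N4.V.H229

open Vale.Agent.P207.N4.H229

open Vale.Agent.P207.N3
open Vale.Agent.P207.H229 (C3 coer_compact isOpen_posdef det_ne_zero_of_posdef contDiff_det'
  grad_comp_eq_zero hess_comp_crit inner_grad_comp)

variable [Dim]

variable {Γ X B : Type} [Group Γ] [MetricSpace X] [ProperSpace X] [MulAction Γ X]
  [IsIsometricSMul Γ X] [TopologicalSpace B] [CompactSpace B] [T2Space B] [MulAction Γ B]
  [ContinuousConstSMul Γ B]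

section

variable (L : Leaf Γ X B) {G : Type} [NormedAddCommGroup G] [NormedSpace ℝ G]

include L in
/-- an invariant open set which contains the diagonal contains a uniform neighbourhood of it -/
theorem exists_diag {S : Set ((X × E2) × E2)} (hS : IsOpen S)
    (hinv : ∀ (g : Γ) x p q, ((g • x, p), q) ∈ S → ((x, p), q) ∈ S)
    (h : ∀ x, ∀ p ∈ closedBall (0 : E2) 1, ((x, p), p) ∈ S) :
    ∃ r : ℝ, 0 < r ∧ ∀ x, ∀ p ∈ closedBall (0 : E2) 1, ∀ q ∈ closedBall p r, ((x, p), q) ∈ S := by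
  obtain ⟨K, hK, hK'⟩ := L.cocompact
  have hc : IsCompact ((fun a : X × E2 => ((a, a.2) : (X × E2) × E2)) ''
      (K ×ˢ closedBall (0 : E2) 1)) :=
    (hK.prod (isCompact_closedBall _ _)).image (by fun_prop)
  obtain ⟨δ, hδ, hsub⟩ := hc.exists_cthickening_subset_open hS (by
    rintro _ ⟨a, ha, rfl⟩
    exact h a.1 a.2 ha.2)
  refine ⟨δ, hδ, fun x p hp q hq => ?_⟩
  obtain ⟨g, hg⟩ := hK' x
  refine hinv g x p q (hsub ?_)
  refine mem_cthickening_of_dist_le ((g • x, p), q) ((g • x, p), p) δ _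
    ⟨(g • x, p), ⟨hg, hp⟩, rfl⟩ ?_
  rw [Prod.dist_eq, dist_self]
  exact max_le hδ.le hq

/-- the compact part of the neighbourhood -/
def diaK (K : Set X) (r : ℝ) : Set ((X × E2) × E2) :=
  (fun a : (X × E2) × E2 => ((a.1, a.1.2 + a.2) : (X × E2) × E2)) ''
    ((K ×ˢ closedBall (0 : E2) 1) ×ˢ closedBall (0 : E2) r)

theorem isCompact_diaK {K : Set X} (hK : IsCompact K) (r : ℝ) : IsCompact (diaK K r) :=
  ((hK.prod (isCompact_closedBall _ _)).prod (isCompact_closedBall _ _)).image (by fun_prop)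

theorem mem_diaK {K : Set X} {r : ℝ} {x : X} {p q : E2} (hx : x ∈ K)
    (hp : p ∈ closedBall (0 : E2) 1) (hq : q ∈ closedBall p r) : ((x, p), q) ∈ diaK K r := by
  refine ⟨((x, p), q - p), ⟨⟨hx, hp⟩, ?_⟩, ?_⟩
  · rw [mem_closedBall_zero_iff, ← dist_eq_norm]
    exact hq
  · simp

theorem diaK_sub {K : Set X} {r : ℝ} {S : Set ((X × E2) × E2)}
    (h : ∀ x, ∀ p ∈ closedBall (0 : E2) 1, ∀ q ∈ closedBall p r, ((x, p), q) ∈ S) :
    diaK K r ⊆ S := by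
  rintro _ ⟨⟨⟨x, p⟩, v⟩, ⟨⟨-, hp⟩, hv⟩, rfl⟩
  refine h x p hp (p + v) ?_
  rw [mem_closedBall, dist_eq_norm, add_sub_cancel_left]
  rwa [mem_closedBall_zero_iff] at hv

/-- a family over the frames and the points, invariant on its domain -/
def Inv3 (F : X × E2 → E2 → G) (S : Set ((X × E2) × E2)) : Prop :=
  ∀ (g : Γ) x p q, ((x, p), q) ∈ S → F (g • x, p) q = F (x, p) q

variable {F : X × E2 → E2 → G} {S : Set ((X × E2) × E2)}

theorem Inv3.ev (hS : IsOpen S) (h : Inv3 (Γ := Γ) F S) (g : Γ) {x : X} {p q : E2}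
    (hq : ((x, p), q) ∈ S) : F (g • x, p) =ᶠ[𝓝 q] F (x, p) := by
  filter_upwards [(isOpen_slice hS (x, p)).mem_nhds hq] with w hw using h g x p w hw

theorem Inv3.fderiv (hS : IsOpen S) (h : Inv3 (Γ := Γ) F S) :
    Inv3 (Γ := Γ) (fun a => fderiv ℝ (F a)) S := fun g _ _ _ hq => (h.ev hS g hq).fderiv_eq

theorem Inv3.mono {T : Set ((X × E2) × E2)} (h : Inv3 (Γ := Γ) F S) (hT : T ⊆ S) :
    Inv3 (Γ := Γ) F T := fun g x p q hq => h g x p q (hT hq)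

include L in
theorem bnd_diag (hF : JC F S) (hinv : Inv3 (Γ := Γ) F S) {r : ℝ}
    (h : ∀ x, ∀ p ∈ closedBall (0 : E2) 1, ∀ q ∈ closedBall p r, ((x, p), q) ∈ S) (k : ℕ) :
    ∃ C, ∀ x, ∀ p ∈ closedBall (0 : E2) 1, ∀ q ∈ closedBall p r,
      ‖iteratedFDeriv ℝ k (F (x, p)) q‖ ≤ C := by
  obtain ⟨K, hK, hK'⟩ := L.cocompact
  obtain ⟨C, hC⟩ := hF.bound (isCompact_diaK hK r) (diaK_sub h) k
  refine ⟨C, fun x p hp q hq => ?_⟩
  obtain ⟨g, hg⟩ := hK' x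
  have h1 := (hinv.ev hF.isOpen g (h x p hp q hq)).symm
  rw [(h1.iteratedFDeriv ℝ k).self_of_nhds]
  exact hC ((g • x, p), q) (mem_diaK hg hp hq)

include L in
theorem bnd_diag0 (hF : JC F S) (hinv : Inv3 (Γ := Γ) F S) {r : ℝ}
    (h : ∀ x, ∀ p ∈ closedBall (0 : E2) 1, ∀ q ∈ closedBall p r, ((x, p), q) ∈ S) :
    ∃ C, ∀ x, ∀ p ∈ closedBall (0 : E2) 1, ∀ q ∈ closedBall p r, ‖F (x, p) q‖ ≤ C := by
  obtain ⟨C, hC⟩ := bnd_diag L hF hinv h 0
  exact ⟨C, fun x p hp q hq => by simpa using hC x p hp q hq⟩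

include L in
/-- **three derivatives near the diagonal, uniformly** -/
theorem exists_C3 (hF : JC F S) (hinv : Inv3 (Γ := Γ) F S) {r : ℝ}
    (h : ∀ x, ∀ p ∈ closedBall (0 : E2) 1, ∀ q ∈ closedBall p r, ((x, p), q) ∈ S) :
    ∃ C : ℝ, ∀ x, ∀ p ∈ closedBall (0 : E2) 1, ∀ K, C ≤ K → ∀ r', 0 < r' → r' ≤ r →
      C3 (F (x, p)) p r' K := by
  have hS := hF.isOpen
  obtain ⟨C1, h1⟩ := bnd_diag0 L hF.fderiv (hinv.fderiv hS) h
  obtain ⟨C2, h2⟩ := bnd_diag0 L hF.fderiv.fderiv ((hinv.fderiv hS).fderiv hS) h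
  obtain ⟨C3', h3⟩ := bnd_diag0 L hF.fderiv.fderiv.fderiv
    (((hinv.fderiv hS).fderiv hS).fderiv hS) h
  refine ⟨max C1 (max C2 C3'), fun x p hp K hK r' hr' hrr => ?_⟩
  have hsub : ∀ q ∈ ball p r', q ∈ closedBall p r := fun q hq =>
    (ball_subset_closedBall.trans (closedBall_subset_closedBall hrr)) hq
  refine C3.of_contDiffOn hr' ((hF.smooth (x, p)).mono fun q hq => h x p hp q (hsub q hq))
    (fun q hq => ?_) (fun q hq => ?_) (fun q hq => ?_)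
  · exact (h1 x p hp q (hsub q hq)).trans ((le_max_left _ _).trans hK)
  · exact (h2 x p hp q (hsub q hq)).trans (((le_max_left _ _).trans (le_max_right _ _)).trans hK)
  · exact (h3 x p hp q (hsub q hq)).trans (((le_max_right _ _).trans (le_max_right _ _)).trans hK)

include L in
/-- **uniform positivity near the diagonal** -/
theorem exists_coer {A : X × E2 → E2 → E2 →L[ℝ] E2} (hA : JC A S) (hinv : Inv3 (Γ := Γ) A S)
    {r : ℝ}
    (h : ∀ x, ∀ p ∈ closedBall (0 : E2) 1, ∀ q ∈ closedBall p r, ((x, p), q) ∈ S ∧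
      ∀ v ≠ 0, 0 < ⟪A (x, p) q v, v⟫) :
    ∃ c > 0, ∀ x, ∀ p ∈ closedBall (0 : E2) 1, ∀ q ∈ closedBall p r, ∀ v,
      c * ‖v‖ ^ 2 ≤ ⟪A (x, p) q v, v⟫ := by
  obtain ⟨K, hK, hK'⟩ := L.cocompact
  have hS : ∀ x, ∀ p ∈ closedBall (0 : E2) 1, ∀ q ∈ closedBall p r, ((x, p), q) ∈ S :=
    fun x p hp q hq => (h x p hp q hq).1
  have hc : IsCompact ((fun a : (X × E2) × E2 => A a.1 a.2) '' diaK K r) :=
    (isCompact_diaK hK r).image_of_continuousOn (hA.continuousOn.mono (diaK_sub hS))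
  obtain ⟨c, hc0, hc1⟩ := coer_compact hc (by
    rintro _ ⟨⟨⟨x, p⟩, q⟩, ha, rfl⟩
    obtain ⟨⟨⟨x', p'⟩, v⟩, ⟨⟨-, hp⟩, hv⟩, he⟩ := ha
    simp only [Prod.mk.injEq] at he
    obtain ⟨⟨rfl, rfl⟩, rfl⟩ := he
    refine (h x' p' hp (p' + v) ?_).2
    rw [mem_closedBall, dist_eq_norm, add_sub_cancel_left]
    rwa [mem_closedBall_zero_iff] at hv)
  refine ⟨c, hc0, fun x p hp q hq v => ?_⟩
  obtain ⟨g, hg⟩ := hK' x
  rw [← hinv g x p q (hS x p hp q hq)]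
  exact hc1 _ ⟨((g • x, p), q), mem_diaK hg hp hq, rfl⟩ v

include L in
/-- bounds over the labels -/
theorem bnd_lab (hF : JC F S) (hinv : Inv3 (Γ := Γ) F S) {r0 : ℝ}
    (h : ∀ x, ∀ y ∈ closedBall (0 : E2) r0, ∀ q ∈ closedBall (0 : E2) 1, ((x, y), q) ∈ S) (k : ℕ) :
    ∃ C, ∀ x, ∀ y ∈ closedBall (0 : E2) r0, ∀ q ∈ closedBall (0 : E2) 1,
      ‖iteratedFDeriv ℝ k (F (x, y)) q‖ ≤ C := by
  obtain ⟨K, hK, hK'⟩ := L.cocompact
  obtain ⟨C, hC⟩ := hF.bound ((hK.prod (isCompact_closedBall (0 : E2) r0)).prod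
    (isCompact_closedBall (0 : E2) 1)) (fun a ha => h a.1.1 a.1.2 ha.1.2 a.2 ha.2) k
  refine ⟨C, fun x y hy q hq => ?_⟩
  obtain ⟨g, hg⟩ := hK' x
  have h1 := (hinv.ev hF.isOpen g (h x y hy q hq)).symm
  rw [(h1.iteratedFDeriv ℝ k).self_of_nhds]
  exact hC ((g • x, y), q) ⟨⟨hg, hy⟩, hq⟩

end

end Vale.Agent.P207.N4.V.H229
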